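import Vale.Agent.P097.H543.Hartogs

/-! # P097 / END (helper839 #8095 (2)): a thin double sector of values of `w` over which the
family is regular above the height `H` moves the whole top line up. -/

set_option linter.all false

open scoped ComplexConjugate Topology
open Filter Metric Set Complex

namespace Vale.Agent.P097.H763

open Vale.Agent.P097.TA Vale.Agent.P097.H543

theorem re_pk (a : ℝ) (z : ℂ) (hz : ‖z‖ = 1) :
    ((1 + a * z ^ 2) / (1 - a * z ^ 2)).re = (1 - a ^ 2) / (1 - 2 * a * (2 * z.re ^ 2 - 1) + a ^ 2) := by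
  have hn : z.re ^ 2 + z.im ^ 2 = 1 := by
    have := Complex.sq_norm z
    rw [hz, normSq_apply] at this
    nlinarith
  have e0 : ((a : ℂ) * z ^ 2).re = a * (z.re ^ 2 - z.im ^ 2) := by
    rw [re_ofReal_mul, pow_two, mul_re]; ring
  have e0' : ((a : ℂ) * z ^ 2).im = a * (2 * z.re * z.im) := by
    rw [im_ofReal_mul, pow_two, mul_im]; ring
  have e1 : (1 + (a : ℂ) * z ^ 2).re = 1 + a * (z.re ^ 2 - z.im ^ 2) := by
    rw [add_re, e0, one_re]
  have e2 : (1 + (a : ℂ) * z ^ 2).im = a * (2 * z.re * z.im) := by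
    rw [add_im, e0', one_im, zero_add]
  have e3 : (1 - (a : ℂ) * z ^ 2).re = 1 - a * (z.re ^ 2 - z.im ^ 2) := by
    rw [sub_re, e0, one_re]
  have e4 : (1 - (a : ℂ) * z ^ 2).im = -(a * (2 * z.re * z.im)) := by
    rw [sub_im, e0', one_im, zero_sub]
  have hX : z.re ^ 2 - z.im ^ 2 = 2 * z.re ^ 2 - 1 := by linarith
  have hXY : (z.re ^ 2 - z.im ^ 2) ^ 2 + (2 * z.re * z.im) ^ 2 = 1 := by
    have : (z.re ^ 2 - z.im ^ 2) ^ 2 + (2 * z.re * z.im) ^ 2 = (z.re ^ 2 + z.im ^ 2) ^ 2 := by ring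
    rw [this, hn]; norm_num
  have e5 : normSq (1 - (a : ℂ) * z ^ 2) = 1 - 2 * a * (2 * z.re ^ 2 - 1) + a ^ 2 := by
    rw [normSq_apply, e3, e4]
    linear_combination (-2 * a) * hX + a ^ 2 * hXY
  rw [div_re, e5, e1, e2, e3, e4, ← add_div]
  congr 1
  linear_combination (-a ^ 2) * hXY

theorem pk_le_big {a x : ℝ} (ha0 : 1 / 2 < a) (ha1 : a < 1) (hx : x ≤ 1) :
    (1 - a ^ 2) / ((1 - a) ^ 2 + 4 * a * (1 - x)) ≤ 2 / (1 - a) := by
  have h0 : 0 < 1 - a := by linarith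
  have h1 : 0 < (1 - a) ^ 2 := by positivity
  have h2 : 0 ≤ 4 * a * (1 - x) := mul_nonneg (by linarith) (by linarith)
  rw [div_le_div_iff₀ (by linarith) h0]
  have e1 : (1 - a ^ 2) * (1 - a) = (1 - a) ^ 2 * (1 + a) := by ring
  rw [e1]
  have e2 : (1 - a) ^ 2 * (1 + a) ≤ (1 - a) ^ 2 * 2 := by gcongr; linarith
  linarith

theorem pk_le_small {a x q : ℝ} (ha : a = (1 + q) / 2) (hq0 : 0 < q) (hq1 : q < 1) (hx : x ≤ q) :
    (1 - a ^ 2) / ((1 - a) ^ 2 + 4 * a * (1 - x)) ≤ 1 / 2 := by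
  have ha0 : 1 / 2 < a := by linarith
  have ha1 : a < 1 := by linarith
  have h1 : 2 * (1 - q) ≤ 4 * a * (1 - x) := by
    have e1 : 2 * (1 - q) ≤ 4 * a * (1 - q) := by
      have : 0 ≤ 1 - q := by linarith
      nlinarith
    have e2 : 4 * a * (1 - q) ≤ 4 * a * (1 - x) := by gcongr
    linarith
  have h2 : 0 ≤ (1 - a) ^ 2 := sq_nonneg _
  rw [div_le_div_iff₀ (by linarith) (by norm_num)]
  have h3 : 1 - a = (1 - q) / 2 := by linarith
  have h4 : 1 - a ^ 2 ≤ 1 - q := by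
    have : 1 - a ^ 2 = (1 - a) * (1 + a) := by ring
    rw [this, h3]
    have : (1 - q) / 2 * (1 + a) ≤ (1 - q) / 2 * 2 := by
      have : 0 ≤ (1 - q) / 2 := by linarith
      gcongr; linarith
    linarith
  linarith

variable {f : ℂ → ℂ → ℂ} {Ω : Set (ℂ × ℂ)}

/-- **END.** `f` is holomorphic and `1`-periodic on the hypograph `Ω`, which contains
`Im t < H - η` for `|w|` small (every `η > 0`) and `Im t < H + ρ` over a thin double sector of
values of `w` around the real axis: then `f` extends to `Im t < H + ε` for all small `w`. -/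
theorem end_sector {b H ρ c r₀ : ℝ} (hΩ : Hypo b Ω) (hf : JD f Ω) (hper : Per f Ω) (hb : b < H)
    (hρ : 0 < ρ) (hc : 0 < c) (hr₀ : 0 < r₀)
    (h1 : ∀ η > 0, ∃ r > 0, ∀ t w : ℂ, b < t.im → t.im < H - η → ‖w‖ ≤ r → (t, w) ∈ Ω)
    (h2 : ∀ t w : ℂ, b < t.im → t.im < H + ρ → 0 < ‖w‖ → ‖w‖ < r₀ → |w.im| < c * |w.re| →
      (t, w) ∈ Ω) :
    ∃ ε > 0, ∃ r > 0, ∃ F : ℂ → ℂ → ℂ,
      JD F (Ω ∪ {p | p.2 ∈ ball (0 : ℂ) r ∧ b < p.1.im ∧ p.1.im < H + ε}) ∧
      Per F (Ω ∪ {p | p.2 ∈ ball (0 : ℂ) r ∧ b < p.1.im ∧ p.1.im < H + ε}) ∧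
      ∀ p ∈ Ω, F p.1 p.2 = f p.1 p.2 := by
  -- parameters
  set q : ℝ := 1 / (1 + c ^ 2) with hq
  have hq0 : 0 < q := by positivity
  have hq1 : q < 1 := by
    rw [hq, div_lt_one (by positivity)]
    nlinarith [sq_pos_of_pos hc]
  set a : ℝ := (1 + q) / 2 with ha
  have ha0 : 1 / 2 < a := by rw [ha]; linarith
  have ha1 : a < 1 := by rw [ha]; linarith
  have h1a : 1 - a = (1 - q) / 2 := by rw [ha]; ring
  set τ : ℝ := ρ * (1 - a) / 4 with hτ
  have hτ0 : 0 < τ := by rw [hτ]; have : 0 < 1 - a := by linarith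
                         positivity
  set η : ℝ := min (τ / 8) ((H - b) / 4) with hη
  have hη0 : 0 < η := by
    rw [hη]; exact lt_min (by linarith) (by linarith)
  have hη1 : η ≤ τ / 8 := min_le_left _ _
  have hη2 : η ≤ (H - b) / 4 := min_le_right _ _
  obtain ⟨r₁, hr₁, h1'⟩ := h1 (η / 2) (by linarith)
  set r : ℝ := min r₁ (r₀ / 2) with hr
  have hr0 : 0 < r := lt_min hr₁ (by linarith)
  have hrr1 : r ≤ r₁ := min_le_left _ _
  have hrr0 : r < r₀ := lt_of_le_of_lt (min_le_right _ _) (by linarith)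
  -- the comparison function
  set GG : ℂ → ℂ := fun w => ((H - η - τ / 2 : ℝ) : ℂ) +
    (τ : ℂ) * ((1 + (a : ℂ) * (w / r) ^ 2) / (1 - (a : ℂ) * (w / r) ^ 2)) with hGG
  have hden : ∀ w ∈ closedBall (0 : ℂ) r, 1 - (a : ℂ) * (w / r) ^ 2 ≠ 0 := by
    intro w hw h0
    have h3 : ‖(a : ℂ) * (w / r) ^ 2‖ = 1 := by
      have : (a : ℂ) * (w / r) ^ 2 = 1 := by linear_combination -h0
      rw [this]; simp
    have h4 : ‖w / (r : ℂ)‖ ≤ 1 := by
      rw [norm_div, norm_real, Real.norm_eq_abs, abs_of_pos hr0, div_le_one hr0]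
      simpa using hw
    rw [norm_mul, norm_pow, norm_real, Real.norm_eq_abs, abs_of_pos (by linarith)] at h3
    have h5 : ‖w / (r : ℂ)‖ ^ 2 ≤ 1 := pow_le_one₀ (norm_nonneg _) h4
    nlinarith
  set U : Set ℂ := {w | 1 - (a : ℂ) * (w / r) ^ 2 ≠ 0} with hU
  have hUo : IsOpen U := isOpen_ne_fun (by fun_prop) continuous_const
  have hU1 : closedBall (0 : ℂ) r ⊆ U := fun w hw => hden w hw
  have hGd : DifferentiableOn ℂ GG U := by
    intro w hw
    apply DifferentiableAt.differentiableWithinAt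
    have hw' : 1 - (a : ℂ) * (w / r) ^ 2 ≠ 0 := hw
    exact (differentiableAt_const _).add ((differentiableAt_const _).mul
      ((by fun_prop : DifferentiableAt ℂ (fun w : ℂ => 1 + (a : ℂ) * (w / r) ^ 2) w).div
        (by fun_prop) hw'))
  have hG0 : (GG 0).re = H - η + τ / 2 := by
    simp only [hGG]
    simp
    ring
  -- apply the Hartogs step
  have key := hartogs_periodic (w₁ := 0) (r := r) (a := (b + H - η) / 2) (GG := GG) (U := U) hΩ hf
    hper hr0 (by linarith) (by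
      intro w hw
      refine h1' _ _ (by simp; linarith) (by simp; linarith) ?_
      have : ‖w‖ ≤ r := by simpa using hw
      linarith) hUo hU1 hGd (by
      intro w hw hbw
      have hwn : ‖w‖ = r := by simpa using hw
      have hz : ‖w / (r : ℂ)‖ = 1 := by
        rw [norm_div, norm_real, Real.norm_eq_abs, abs_of_pos hr0, hwn, div_self hr0.ne']
      have hre : (GG w).re = H - η - τ / 2 + τ * ((1 - a ^ 2) /
          (1 - 2 * a * (2 * (w / (r : ℂ)).re ^ 2 - 1) + a ^ 2)) := by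
        simp only [hGG]
        rw [add_re, ofReal_re, re_ofReal_mul, re_pk a _ hz]
      have hwr : (w / (r : ℂ)).re = w.re / r := div_ofReal_re w r
      have hwr2 : w.re ^ 2 + w.im ^ 2 = r ^ 2 := by
        have := Complex.sq_norm w
        rw [hwn, normSq_apply] at this
        nlinarith
      have hx1 : (w.re / r) ^ 2 ≤ 1 := by
        rw [div_pow, div_le_one (by positivity)]
        nlinarith [sq_nonneg w.im]
      set x : ℝ := (w.re / r) ^ 2 with hx
      rw [hwr, ← hx] at hre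
      have hx0 : 0 ≤ x := sq_nonneg _
      have hD : 1 - 2 * a * (2 * x - 1) + a ^ 2 = (1 - a) ^ 2 + 4 * a * (1 - x) := by ring
      rw [hD] at hre
      by_cases hs : |w.im| < c * |w.re|
      · -- in the sector
        refine h2 _ _ (by simpa using hbw) ?_ (by rw [hwn]; exact hr0) (by rw [hwn]; exact hrr0) hs
        have e1 := pk_le_big ha0 ha1 hx1
        have e3 : τ * ((1 - a ^ 2) / ((1 - a) ^ 2 + 4 * a * (1 - x))) ≤ ρ / 2 := by
          have e4 : τ * (2 / (1 - a)) = ρ / 2 := by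
            have : (1 - a) ≠ 0 := by linarith
            rw [hτ]; field_simp; ring
          calc _ ≤ τ * (2 / (1 - a)) := by gcongr
            _ = ρ / 2 := e4
        simp only [mul_im, ofReal_re, I_im, mul_one, ofReal_im, I_re, mul_zero, add_zero]
        rw [hre]
        linarith
      · -- outside the sector
        push Not at hs
        have hxq : x ≤ q := by
          have e1 : (c * |w.re|) ^ 2 ≤ |w.im| ^ 2 := by gcongr
          rw [mul_pow, sq_abs, sq_abs] at e1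
          rw [hx, hq, div_pow, div_le_div_iff₀ (by positivity) (by positivity)]
          linear_combination e1 + hwr2.le
        have e1 : τ * ((1 - a ^ 2) / ((1 - a) ^ 2 + 4 * a * (1 - x))) ≤ τ / 2 := by
          have e2 := pk_le_small ha hq0 hq1 hxq
          calc _ ≤ τ * (1 / 2) := by gcongr
            _ = τ / 2 := by ring
        refine h1' _ _ (by simpa using hbw) ?_ (by rw [hwn]; exact hrr1)
        simp only [mul_im, ofReal_re, I_im, mul_one, ofReal_im, I_re, mul_zero, add_zero]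
        rw [hre]
        linarith)
  obtain ⟨F, hF1, hF2, hF3⟩ := key
  -- shrink
  have hcont : ContinuousAt (fun w => (GG w).re) 0 :=
    Complex.continuous_re.continuousAt.comp (hGd.continuousOn.continuousAt
      (hUo.mem_nhds (hU1 (by simp [hr0.le]))))
  have hlt : H + τ / 8 < (GG 0).re := by rw [hG0]; linarith
  obtain ⟨r₂, hr₂, h₂⟩ := Metric.eventually_nhds_iff_ball.1 (hcont.eventually (lt_mem_nhds hlt))
  refine ⟨τ / 8, by linarith, min r r₂, lt_min hr0 hr₂, F, ?_, ?_, hF3⟩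
  · refine JD_mono hF1 ?_
    rintro p (hp | ⟨hp1, hp2, hp3⟩)
    · exact Or.inl hp
    · refine Or.inr ⟨ball_subset_ball (min_le_left _ _) hp1, hp2, hp3.trans ?_⟩
      exact h₂ _ (ball_subset_ball (min_le_right _ _) hp1)
  · intro t w hp
    refine hF2 t w ?_
    rcases hp with hp | ⟨hp1, hp2, hp3⟩
    · exact Or.inl hp
    · refine Or.inr ⟨ball_subset_ball (min_le_left _ _) hp1, hp2, hp3.trans ?_⟩
      exact h₂ _ (ball_subset_ball (min_le_right _ _) hp1)

/-- translation of the second variable -/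
theorem hypo_shift {b : ℝ} (hΩ : Hypo b Ω) (w₁ : ℂ) :
    Hypo b ((fun p : ℂ × ℂ => (p.1, p.2 + w₁)) ⁻¹' Ω) where
  op := hΩ.op.preimage (by fun_prop)
  low := fun t w h => hΩ.low t (w + w₁) h
  down := fun t s w h h1 h2 => hΩ.down t s (w + w₁) h h1 h2

/-- **END** at a general centre `w₁` -/
theorem end_sector_at {b H ρ c r₀ : ℝ} {w₁ : ℂ} (hΩ : Hypo b Ω) (hf : JD f Ω) (hper : Per f Ω)
    (hb : b < H) (hρ : 0 < ρ) (hc : 0 < c) (hr₀ : 0 < r₀)
    (h1 : ∀ η > 0, ∃ r > 0, ∀ t w : ℂ, b < t.im → t.im < H - η → ‖w - w₁‖ ≤ r → (t, w) ∈ Ω)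
    (h2 : ∀ t w : ℂ, b < t.im → t.im < H + ρ → 0 < ‖w - w₁‖ → ‖w - w₁‖ < r₀ →
      |(w - w₁).im| < c * |(w - w₁).re| → (t, w) ∈ Ω) :
    ∃ ε > 0, ∃ r > 0, ∃ F : ℂ → ℂ → ℂ,
      JD F (Ω ∪ {p | p.2 ∈ ball w₁ r ∧ b < p.1.im ∧ p.1.im < H + ε}) ∧
      Per F (Ω ∪ {p | p.2 ∈ ball w₁ r ∧ b < p.1.im ∧ p.1.im < H + ε}) ∧
      ∀ p ∈ Ω, F p.1 p.2 = f p.1 p.2 := by
  obtain ⟨ε, hε, r, hr, F, hF1, hF2, hF3⟩ := end_sector (f := fun t w => f t (w + w₁))
    (hypo_shift hΩ w₁)
    (DifferentiableOn.comp (g := fun p : ℂ × ℂ => f p.1 p.2) (t := Ω) hf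
      (by fun_prop : Differentiable ℂ fun p : ℂ × ℂ => (p.1, p.2 + w₁)).differentiableOn
      fun p hp => hp)
    (fun t w h => hper t (w + w₁) h) hb hρ hc hr₀
    (fun η hη => by
      obtain ⟨r, hr, h⟩ := h1 η hη
      exact ⟨r, hr, fun t w a1 a2 a3 => h t (w + w₁) a1 a2 (by simpa using a3)⟩)
    (fun t w a1 a2 a3 a4 a5 => h2 t (w + w₁) a1 a2 (by simpa using a3) (by simpa using a4)
      (by simpa using a5))
  refine ⟨ε, hε, r, hr, fun t w => F t (w - w₁), ?_, ?_, ?_⟩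
  · refine DifferentiableOn.comp (g := fun p : ℂ × ℂ => F p.1 p.2) (t := _) hF1
      (by fun_prop : Differentiable ℂ fun p : ℂ × ℂ => (p.1, p.2 - w₁)).differentiableOn ?_
    rintro p (hp | ⟨hp1, hp2, hp3⟩)
    · left
      show (p.1, p.2 - w₁ + w₁) ∈ Ω
      simpa using hp
    · right
      refine ⟨?_, hp2, hp3⟩
      simpa [dist_eq_norm] using hp1
  · intro t w hp
    refine hF2 t (w - w₁) ?_
    rcases hp with hp | ⟨hp1, hp2, hp3⟩
    · left
      show (t, w - w₁ + w₁) ∈ Ω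
      simpa using hp
    · right
      refine ⟨?_, hp2, hp3⟩
      simpa [dist_eq_norm] using hp1
  · intro p hp
    have := hF3 (p.1, p.2 - w₁) (by show (p.1, p.2 - w₁ + w₁) ∈ Ω; simpa using hp)
    simpa using this

end Vale.Agent.P097.H763
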